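import Vale.Agent.P193.Main

universe v

theorem Vale.Agent.Results.P193.A_full.result (G : Type v) [Group G] (n : ℕ) (s : Fin n → G)
    (hs : Subgroup.closure (Set.range s) = ⊤)
    (hWP : ComputablePred fun w : List (Fin n × Bool) =>
      (w.map fun p => if p.2 then s p.1 else (s p.1)⁻¹).prod = 1) :
    ∃ (H : Type) (_ : Group H), IsSimpleGroup H ∧ Group.IsFinitelyPresented H ∧
      ∃ f : G →* H, Function.Injective f :=
  Vale.Agent.P193.boone_higman G n s hs hWP
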